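import Vale.Agent.P184.H856.LocDef
import Vale.Agent.P184.H856.Cyc

/-!
# P184: locality, the idempotent of a difference and the trace of a small difference
-/

noncomputable section

namespace Vale.Agent.P184.H74.Loc

open Vale.Agent.P184.H13 (E dl co sm)
open Vale.Agent.P184.H856
open Vale.Agent.P184.H856.Loc

universe u v

variable {Y : Type u} {L : Type v}

/-- the symmetry -/
def UU (P : Op Y L) : Op (Bool × Y) L :=
  blk true true P + blk true false (1 - P) + blk false true (1 - P) + blk false false P

theorem tf : true ≠ false := Bool.noConfusion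

theorem ft : false ≠ true := Bool.noConfusion

/-- `ZZ P K` minus the first copy of `1` is a conjugate of `K` -/
theorem zz_eq (P K : Op Y L) : ZZ P K - blk true true 1 = UU P * (blk true true K * UU P) := by
  have h1 : UU P * (blk true true K * UU P) = blk true true (P * (K * P)) +
      blk true false (P * (K * (1 - P))) + blk false true ((1 - P) * (K * P)) +
      blk false false ((1 - P) * (K * (1 - P))) := by
    unfold UU
    simp only [mul_add, add_mul, blk_mul_same, blk_mul_ne tf, blk_mul_ne ft, add_zero]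
    abel
  rw [h1]
  unfold ZZ
  rw [← blk_add true true 1 (P * K * P)]
  simp only [mul_assoc]
  abel

theorem uu_mul {P : Op Y L} (hP : P * P = P) : UU P * UU P = 1 := by
  have hPR : P * (1 - P) = 0 := by rw [mul_sub, mul_one, hP, sub_self]
  have hRP : (1 - P) * P = 0 := by rw [sub_mul, one_mul, hP, sub_self]
  have hRR : (1 - P) * (1 - P) = 1 - P := by
    rw [mul_sub, mul_one, hRP, sub_zero]
  have h1 : UU P * UU P = blk true true P + blk true true (1 - P) +
      (blk false false P + blk false false (1 - P)) := by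
    unfold UU
    simp only [mul_add, add_mul, blk_mul_same, blk_mul_ne tf, blk_mul_ne ft, hP, hPR, hRP, hRR,
      blk_zero, add_zero, zero_add]
    abel
  rw [h1, blk_add, blk_add, add_sub_cancel, blk_one]

theorem uu_one {P : Op Y L} (hP : P * P = P) :
    UU P * (blk true true P + blk false false (1 - P)) * UU P = blk true true 1 := by
  have hPR : P * (1 - P) = 0 := by rw [mul_sub, mul_one, hP, sub_self]
  have hRP : (1 - P) * P = 0 := by rw [sub_mul, one_mul, hP, sub_self]
  have hRR : (1 - P) * (1 - P) = 1 - P := by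
    rw [mul_sub, mul_one, hRP, sub_zero]
  have h1 : UU P * (blk true true P + blk false false (1 - P)) * UU P =
      blk true true P + blk true true (1 - P) := by
    unfold UU
    simp only [mul_add, add_mul, blk_mul_same, blk_mul_ne tf, blk_mul_ne ft, hP, hPR, hRP, hRR,
      blk_zero, add_zero, zero_add]
  rw [h1, blk_add, add_sub_cancel]

theorem zz_idem {P P' : Op Y L} (hP : P * P = P) (hP' : P' * P' = P') :
    ZZ P' (P - P') * ZZ P' (P - P') = ZZ P' (P - P') := by
  have hRR : (1 - P') * (1 - P') = 1 - P' := by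
    rw [mul_sub, mul_one, sub_mul, one_mul, hP', sub_self, sub_zero]
  have hZ : ZZ P' (P - P') = UU P' * (blk true true P + blk false false (1 - P')) * UU P' := by
    have h1 := zz_eq P' (P - P')
    rw [← blk_sub] at h1
    rw [sub_eq_iff_eq_add] at h1
    rw [h1, ← uu_one hP']
    noncomm_ring
  have hW : (blk true true P + blk false false (1 - P') : Op (Bool × Y) L) *
      (blk true true P + blk false false (1 - P')) = blk true true P + blk false false (1 - P') := by
    simp only [mul_add, add_mul, blk_mul_same, blk_mul_ne tf, blk_mul_ne ft, hP, hRR,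
      add_zero, zero_add]
  rw [hZ]
  set W : Op (Bool × Y) L := blk true true P + blk false false (1 - P') with hWd
  have h2 : UU P' * W * UU P' * (UU P' * W * UU P') = UU P' * (W * (UU P' * UU P') * W) * UU P' := by
    noncomm_ring
  rw [h2, uu_mul hP', mul_one, hW]

section Group

variable [Group L]

theorem eqv_uu {P : Op Y L} (eP : Eqv P) : Eqv (UU P) :=
  eqv_add (eqv_add (eqv_add (eqv_blk _ _ eP) (eqv_blk _ _ (eqv_sub eqv_one eP)))
    (eqv_blk _ _ (eqv_sub eqv_one eP))) (eqv_blk _ _ eP)

theorem eqv_zz {P K : Op Y L} (eP : Eqv P) (eK : Eqv K) : Eqv (ZZ P K) := by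
  have h1 := zz_eq P K
  rw [sub_eq_iff_eq_add] at h1
  rw [h1]
  exact eqv_add (eqv_mul (eqv_uu eP) (eqv_mul (eqv_blk _ _ eK) (eqv_uu eP)))
    (eqv_blk _ _ eqv_one)

theorem nuc_zz {P K : Op Y L} (eP : Eqv P) (hK : NucL K) :
    NucL (ZZ P K - blk true true 1) := by
  rw [zz_eq]
  exact nucL_mul_left (nucL_mul (nucL_blk _ _ hK) _) (eqv_uu eP)

theorem tr_zz {P K : Op Y L} (hP : P * P = P) (eP : Eqv P) (eK : Eqv K) (hK : NucL K)
    (D : ConjClasses L) : trD D (ZZ P K - blk true true 1) = trD D K := by
  rw [zz_eq, trD_comm (nucL_mul (nucL_blk _ _ hK) _) (eqv_mul (eqv_blk _ _ eK) (eqv_uu eP))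
    (eqv_uu eP), mul_assoc, uu_mul hP, mul_one, trD_blk]

theorem near_tr {Z z : Op Y L} (hZ : Z * Z = Z) (hz : z * z = z) (eZ : Eqv Z) (ez : Eqv z)
    (hn : NucL (Z - z)) (hs : ‖Z - z‖ * (1 + 2 * ‖Z‖) < 1) (D : ConjClasses L) :
    trD D (Z - z) = 0 := by
  refine trD_near hz hZ ez eZ hn ?_ D
  nlinarith [norm_nonneg (Z - z), norm_nonneg Z, mul_nonneg (norm_nonneg (Z - z)) (norm_nonneg Z)]

end Group

end Vale.Agent.P184.H74.Loc
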