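import Vale.Agent.P184.H290.Tree1

/-!
# A group acting on a tree with an edge as strict fundamental domain: vertices against edges
-/

namespace Vale.Agent.P184.H74

open SimpleGraph H290.Tree

section

variable {G V : Type*} [Group G] [MulAction G V] {T : SimpleGraph V} {a b : V}

/-- The vertices where the neighbour towards `a` is not preserved, and `a`. -/
def B (T : SimpleGraph V) (a : V) (g : G) : Set V := {v | v = a ∨ par T a (g • v) ≠ g • par T a v}

open Classical in
/-- The edge from `v` towards `a`, as (end in `Ga`, end in `Gb`). -/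
noncomputable def ed (G : Type*) [Group G] [MulAction G V] (T : SimpleGraph V) (a v : V) : V × V :=
  if v ∈ MulAction.orbit G a then (v, par T a v) else (par T a v, v)

open Classical in
/-- The vertex of an edge away from `a`. -/
noncomputable def top (T : SimpleGraph V) (a : V) (p : V × V) : V :=
  if T.dist a p.1 = T.dist a p.2 + 1 then p.1 else p.2

/-- Oriented edges. -/
def Ed (G : Type*) [Group G] [MulAction G V] (T : SimpleGraph V) (a b : V) : Set (V × V) :=
  {p | T.Adj p.1 p.2 ∧ p.1 ∈ MulAction.orbit G a ∧ p.2 ∈ MulAction.orbit G b}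

theorem smul_orb (g : G) (v c : V) : g • v ∈ MulAction.orbit G c ↔ v ∈ MulAction.orbit G c := by
  constructor
  · rintro ⟨h, hh⟩
    refine ⟨g⁻¹ * h, ?_⟩
    simp only at hh ⊢
    rw [mul_smul, hh, inv_smul_smul]
  · rintro ⟨h, hh⟩
    refine ⟨g * h, ?_⟩
    simp only at hh ⊢
    rw [mul_smul, hh]

theorem orbit_disj (hne : ∀ g : G, g • a ≠ b) {v : V} (h1 : v ∈ MulAction.orbit G a)
    (h2 : v ∈ MulAction.orbit G b) : False := by
  obtain ⟨g, hg⟩ := h1
  obtain ⟨h, hh⟩ := h2
  refine hne (h⁻¹ * g) ?_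
  simp only at hg hh
  rw [mul_smul, hg, ← hh, inv_smul_smul]

theorem adj_cases (hE : ∀ u v, T.Adj u v → (∃ g : G, g • a = u ∧ g • b = v) ∨
    ∃ g : G, g • a = v ∧ g • b = u) {u v : V} (h : T.Adj u v) :
    (u ∈ MulAction.orbit G a ∧ v ∈ MulAction.orbit G b) ∨
    (u ∈ MulAction.orbit G b ∧ v ∈ MulAction.orbit G a) := by
  rcases hE u v h with ⟨g, h1, h2⟩ | ⟨g, h1, h2⟩
  · exact Or.inl ⟨⟨g, h1⟩, ⟨g, h2⟩⟩
  · exact Or.inr ⟨⟨g, h2⟩, ⟨g, h1⟩⟩

theorem ed_mem (hT : T.IsTree) (hne : ∀ g : G, g • a ≠ b)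
    (hE : ∀ u v, T.Adj u v → (∃ g : G, g • a = u ∧ g • b = v) ∨ ∃ g : G, g • a = v ∧ g • b = u)
    {v : V} (hv : v ≠ a) : ed G T a v ∈ Ed G T a b := by
  have h1 := par_adj hT (Ne.symm hv)
  unfold ed
  rcases adj_cases hE h1 with ⟨h2, h3⟩ | ⟨h2, h3⟩
  · rw [if_pos h2]
    exact ⟨h1, h2, h3⟩
  · rw [if_neg (fun h => orbit_disj hne h h2)]
    exact ⟨h1.symm, h3, h2⟩

theorem top_ed (hT : T.IsTree) {v : V} (hv : v ≠ a) : top T a (ed G T a v) = v := by
  have h1 := par_dist hT (Ne.symm hv)
  unfold ed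
  split_ifs with h
  · unfold top
    rw [if_pos h1]
  · unfold top
    rw [if_neg (by simp only; omega)]

theorem top_ne (hT : T.IsTree) {p : V × V} (hp : p ∈ Ed G T a b) : top T a p ≠ a := by
  unfold top
  split_ifs with h
  · intro h1
    rw [h1, dist_self] at h
    omega
  · intro h1
    rcases hT.dist_eq_dist_add_one_of_adj a hp.1 with h2 | h2
    · exact h h2
    · rw [h1, dist_self] at h2
      omega

theorem ed_top (hT : T.IsTree) (hne : ∀ g : G, g • a ≠ b) {p : V × V} (hp : p ∈ Ed G T a b) :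
    ed G T a (top T a p) = p := by
  unfold top
  split_ifs with h
  · unfold ed
    rw [if_pos hp.2.1, par_eq hT hp.1 h]
  · have h2 : T.dist a p.2 = T.dist a p.1 + 1 := by
      rcases hT.dist_eq_dist_add_one_of_adj a hp.1 with h2 | h2
      · exact absurd h2 h
      · exact h2
    unfold ed
    rw [if_neg (fun h3 => orbit_disj hne h3 hp.2.2), par_eq hT hp.1.symm h2]

theorem smul_mem_Ed (hadj : ∀ (g : G) u v, T.Adj u v → T.Adj (g • u) (g • v)) (g : G) {p : V × V}
    (hp : p ∈ Ed G T a b) : g • p ∈ Ed G T a b :=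
  ⟨hadj g _ _ hp.1, (smul_orb _ _ _).mpr hp.2.1,
    (smul_orb _ _ _).mpr hp.2.2⟩

theorem exists_sec (hne : ∀ g : G, g • a ≠ b)
    (hE : ∀ u v, T.Adj u v → (∃ g : G, g • a = u ∧ g • b = v) ∨ ∃ g : G, g • a = v ∧ g • b = u)
    {p : V × V} (hp : p ∈ Ed G T a b) : ∃ g : G, g • a = p.1 ∧ g • b = p.2 := by
  rcases hE _ _ hp.1 with h | ⟨g, h1, h2⟩
  · exact h
  · exact (orbit_disj hne hp.2.1 ⟨g, h2⟩).elim

open Classical in
/-- The action on the edges, carried over to the vertices. -/
noncomputable def st (T : SimpleGraph V) (a : V) (g : G) (v : V) : V :=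
  if v = a then a else top T a (g • ed G T a v)

theorem st_base (g : G) : st T a g a = a := if_pos rfl

theorem st_ne (hT : T.IsTree) (hadj : ∀ (g : G) u v, T.Adj u v → T.Adj (g • u) (g • v))
    (hne : ∀ g : G, g • a ≠ b)
    (hE : ∀ u v, T.Adj u v → (∃ g : G, g • a = u ∧ g • b = v) ∨ ∃ g : G, g • a = v ∧ g • b = u)
    (g : G) {v : V} (hv : v ≠ a) : st T a g v ≠ a ∧ ed G T a (st T a g v) = g • ed G T a v := by
  have h1 := smul_mem_Ed hadj g (ed_mem hT hne hE hv)
  unfold st
  rw [if_neg hv]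
  exact ⟨top_ne hT h1, ed_top hT hne h1⟩

theorem st_one (hT : T.IsTree) (v : V) : st T a (1 : G) v = v := by
  by_cases hv : v = a
  · rw [hv, st_base]
  · unfold st
    rw [if_neg hv, one_smul, top_ed hT hv]

theorem st_mul (hT : T.IsTree) (hadj : ∀ (g : G) u v, T.Adj u v → T.Adj (g • u) (g • v))
    (hne : ∀ g : G, g • a ≠ b)
    (hE : ∀ u v, T.Adj u v → (∃ g : G, g • a = u ∧ g • b = v) ∨ ∃ g : G, g • a = v ∧ g • b = u)
    (g h : G) (v : V) : st T a (g * h) v = st T a g (st T a h v) := by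
  by_cases hv : v = a
  · rw [hv, st_base, st_base, st_base]
  · obtain ⟨h1, h2⟩ := st_ne hT hadj hne hE h hv
    have e1 : st T a (g * h) v = top T a ((g * h) • ed G T a v) := if_neg hv
    have e2 : st T a g (st T a h v) = top T a (g • ed G T a (st T a h v)) := if_neg h1
    rw [e1, e2, h2, mul_smul]

theorem fix_unique (hT : T.IsTree) (hadj : ∀ (g : G) u v, T.Adj u v → T.Adj (g • u) (g • v))
    (g : G) {v w : V} (hv : g • v = v) (hw : g • w = w) (hpv : g • par T a v ≠ par T a v)
    (hpw : g • par T a w ≠ par T a w) : v = w := by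
  by_contra hvw
  have key : ∀ {v w : V}, g • v = v → g • w = w → g • par T a v ≠ par T a v → v ≠ w →
      T.dist a w = T.dist a v + T.dist v w := by
    intro v w hv hw hpv hvw
    refine dist_add hT _ w rfl hvw ?_
    intro h
    apply hpv
    have h1 := par_smul hadj hT g w v
    rw [hv, hw] at h1
    rw [h, ← h1]
  have h1 := key hv hw hpv hvw
  have h2 := key hw hv hpw (Ne.symm hvw)
  have h3 : T.dist v w = 0 := by omega
  exact hvw (hT.connected.dist_eq_zero_iff.1 h3)

theorem ncard_fix (hT : T.IsTree) (hadj : ∀ (g : G) u v, T.Adj u v → T.Adj (g • u) (g • v))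
    (g : G) (hg : ∃ v : V, g • v = v) : {v | g • v = v ∧ v ∈ B T a g}.ncard = 1 := by
  rw [Set.ncard_eq_one]
  by_cases ha : g • a = a
  · refine ⟨a, Set.eq_singleton_iff_unique_mem.mpr ⟨⟨ha, Or.inl rfl⟩, ?_⟩⟩
    rintro v ⟨_, h | h⟩
    · exact h
    · exfalso
      apply h
      have := par_smul hadj hT g a v
      rwa [ha] at this
  · obtain ⟨v, hv, hmin⟩ : ∃ v : V, g • v = v ∧ ∀ w : V, g • w = w → T.dist a v ≤ T.dist a w := by
      classical
      have hex : ∃ n : ℕ, ∃ v : V, g • v = v ∧ T.dist a v = n := by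
        obtain ⟨v, hv⟩ := hg
        exact ⟨_, v, hv, rfl⟩
      obtain ⟨v, hv, hn⟩ := Nat.find_spec hex
      refine ⟨v, hv, fun w hw => ?_⟩
      rw [hn]
      exact Nat.find_min' hex ⟨w, hw, rfl⟩
    have hva : v ≠ a := by
      rintro rfl
      exact ha hv
    have hpv : g • par T a v ≠ par T a v := by
      intro h
      have h1 := hmin _ h
      have h2 := par_dist hT (Ne.symm hva)
      omega
    refine ⟨v, Set.eq_singleton_iff_unique_mem.mpr ⟨⟨hv, Or.inr ?_⟩, ?_⟩⟩
    · rw [hv]
      exact Ne.symm hpv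
    · rintro w ⟨hw, h | h⟩
      · rw [h] at hw
        exact absurd hw ha
      · rw [hw] at h
        exact fix_unique hT hadj g hw hv (Ne.symm h) hpv

open Classical in
/-- The package. -/
theorem pack (hT : T.IsTree) (hadj : ∀ (g : G) u v, T.Adj u v → T.Adj (g • u) (g • v))
    (hV : ∀ v, (∃ g : G, g • a = v) ∨ ∃ g : G, g • b = v) (hne : ∀ g : G, g • a ≠ b)
    (hE : ∀ u v, T.Adj u v → (∃ g : G, g • a = u ∧ g • b = v) ∨ ∃ g : G, g • a = v ∧ g • b = u) :
    ∃ (s : V → G) (star : G →* Equiv.Perm V) (κ : G → V → G) (ν : G → ℕ),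
      (∀ v, v ∈ MulAction.orbit G a → s v • a = v) ∧
      (∀ v, v ∈ MulAction.orbit G b → s v • b = v) ∧
      (∀ g v, v ∈ MulAction.orbit G a → (s (g • v))⁻¹ * g * s v ∈ MulAction.stabilizer G a) ∧
      (∀ g v, v ∈ MulAction.orbit G b → (s (g • v))⁻¹ * g * s v ∈ MulAction.stabilizer G b) ∧
      (∀ g h v, κ (g * h) v = κ g (star h v) * κ h v) ∧
      (∀ g v, κ g v ∈ MulAction.stabilizer G a ⊓ MulAction.stabilizer G b) ∧
      (∀ g v, v ∉ B T a g → star g v = g • v ∧ κ g v = (s (g • v))⁻¹ * g * s v) ∧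
      (∀ g v, star g v = v → v ∈ B T a g → κ g v = 1) ∧
      (∀ g : G, (B T a g).Finite) ∧ (∀ g h, ν (g * h) ≤ ν g + ν h) ∧
      (∀ g, (B T a g).ncard ≤ ν g + 1) ∧
      (∀ g : G, (∃ v : V, g • v = v) → {v | g • v = v ∧ v ∈ B T a g}.ncard = 1) ∧
      (∀ g, star g a = a) ∧ (∀ g, κ g a = 1) ∧ s a = 1 ∧
      (∀ g v, star g v = v → v ≠ a → g • v = v ∧ g • par T a v = par T a v) := by
  -- the section of the edges
  have hsec : ∃ σ : V × V → G, ∀ p ∈ Ed G T a b, σ p • a = p.1 ∧ σ p • b = p.2 := by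
    refine ⟨fun p => if h : p ∈ Ed G T a b then (exists_sec hne hE h).choose else 1, fun p hp => ?_⟩
    simp only [dif_pos hp]
    exact (exists_sec hne hE hp).choose_spec
  obtain ⟨σ, hσ⟩ := hsec
  set s : V → G := fun v => if v = a then 1 else σ (ed G T a v) with hs
  have hs0 : s a = 1 := if_pos rfl
  have hs1 : ∀ v, v ≠ a → s v = σ (ed G T a v) := fun v hv => if_neg hv
  -- the values of `s`
  have hsa : ∀ v, v ∈ MulAction.orbit G a → s v • a = v := by
    intro v hv
    by_cases h : v = a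
    · rw [h, hs0, one_smul]
    · rw [hs1 v h, (hσ _ (ed_mem hT hne hE h)).1]
      unfold ed
      rw [if_pos hv]
  have hsb : ∀ v, v ∈ MulAction.orbit G b → s v • b = v := by
    intro v hv
    by_cases h : v = a
    · subst h
      exact (orbit_disj hne (MulAction.mem_orbit_self _) hv).elim
    · rw [hs1 v h, (hσ _ (ed_mem hT hne hE h)).2]
      unfold ed
      rw [if_neg (fun h' => orbit_disj hne h' hv)]
  have hstb : ∀ (c : V), (∀ v, v ∈ MulAction.orbit G c → s v • c = v) →
      ∀ g v, v ∈ MulAction.orbit G c → (s (g • v))⁻¹ * g * s v ∈ MulAction.stabilizer G c := by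
    intro c hc g v hv
    rw [MulAction.mem_stabilizer_iff, mul_smul, mul_smul, hc v hv, inv_smul_eq_iff]
    exact (hc (g • v) ((smul_orb _ _ _).mpr hv)).symm
  -- the action on the edges
  let star : G →* Equiv.Perm V :=
    { toFun := fun g =>
        { toFun := st T a g
          invFun := st T a g⁻¹
          left_inv := fun v => by rw [← st_mul hT hadj hne hE, inv_mul_cancel, st_one hT]
          right_inv := fun v => by rw [← st_mul hT hadj hne hE, mul_inv_cancel, st_one hT] }
      map_one' := by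
        ext v
        exact st_one hT v
      map_mul' := fun g h => by
        ext v
        exact st_mul hT hadj hne hE g h v }
  have hstar : ∀ g v, star g v = st T a g v := fun _ _ => rfl
  set κ : G → V → G := fun g v => if v = a then 1 else (s (star g v))⁻¹ * g * s v with hκ
  have hκ0 : ∀ g, κ g a = 1 := fun g => if_pos rfl
  have hκ1 : ∀ g v, v ≠ a → κ g v = (s (star g v))⁻¹ * g * s v := fun g v hv => if_neg hv
  have hfixed : ∀ g v, star g v = v → v ≠ a → g • v = v ∧ g • par T a v = par T a v := by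
    intro g v h hv
    have h1 := (st_ne hT hadj hne hE g hv).2
    rw [← hstar, h] at h1
    unfold ed at h1
    split_ifs at h1 with h2
    · rw [Prod.ext_iff] at h1
      exact ⟨h1.1.symm, h1.2.symm⟩
    · rw [Prod.ext_iff] at h1
      exact ⟨h1.2.symm, h1.1.symm⟩
  have hfin : ∀ g : G, {v | par T a (g • v) ≠ g • par T a v}.Finite :=
    fun g => par_smul_finite hadj hT a g
  have hB : ∀ g : G, B T a g = {a} ∪ {v | par T a (g • v) ≠ g • par T a v} := fun g => rfl
  refine ⟨s, star, κ, fun g => {v | par T a (g • v) ≠ g • par T a v}.ncard, hsa, hsb,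
    hstb a hsa, hstb b hsb, ?_, ?_, ?_, ?_, ?_, ?_, ?_,
    fun g hg => ncard_fix hT hadj g hg, fun g => st_base g, hκ0, hs0, hfixed⟩
  · intro g h v
    by_cases hv : v = a
    · subst hv
      have e : star h v = v := st_base h
      rw [hκ0, hκ0, e, hκ0, one_mul]
    · have h1 : star h v ≠ a := (st_ne hT hadj hne hE h hv).1
      rw [hκ1 _ _ hv, hκ1 _ _ hv, hκ1 _ _ h1, map_mul, Equiv.Perm.mul_apply]
      group
  · intro g v
    by_cases hv : v = a
    · rw [hv, hκ0]
      exact one_mem _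
    · obtain ⟨h1, h2⟩ := st_ne hT hadj hne hE g hv
      have h3 := hσ _ (ed_mem hT hne hE hv)
      have h4 := hσ _ (ed_mem hT hne hE h1)
      rw [h2] at h4
      rw [hκ1 _ _ hv, hstar, hs1 _ h1, hs1 _ hv, h2]
      refine Subgroup.mem_inf.mpr ⟨?_, ?_⟩
      · rw [MulAction.mem_stabilizer_iff, mul_smul, mul_smul, h3.1, inv_smul_eq_iff, h4.1]
        rfl
      · rw [MulAction.mem_stabilizer_iff, mul_smul, mul_smul, h3.2, inv_smul_eq_iff, h4.2]
        rfl
  · intro g v hv
    have hva : v ≠ a := fun h => hv (Or.inl h)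
    have hpar : par T a (g • v) = g • par T a v := by
      by_contra h
      exact hv (Or.inr h)
    have hgv : g • v ≠ a := by
      intro h
      rw [h, par_self] at hpar
      have h1 : v = par T a v := by
        rw [← inv_smul_eq_iff] at hpar
        rw [← hpar, ← h, inv_smul_smul]
      exact (par_adj hT (Ne.symm hva)).ne h1
    have hed : g • ed G T a v = ed G T a (g • v) := by
      unfold ed
      by_cases h : v ∈ MulAction.orbit G a
      · rw [if_pos h, if_pos ((smul_orb _ _ _).mpr h), hpar]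
        rfl
      · rw [if_neg h, if_neg (fun h' => h ((smul_orb _ _ _).mp h')), hpar]
        rfl
    have e1 : star g v = g • v := by
      rw [hstar]
      unfold st
      rw [if_neg hva, hed, top_ed hT hgv]
    exact ⟨e1, by rw [hκ1 _ _ hva, e1]⟩
  · intro g v h hv
    by_cases hva : v = a
    · rw [hva, hκ0]
    · obtain ⟨h1, h2⟩ := hfixed g v h hva
      rcases hv with hv | hv
      · exact absurd hv hva
      · exact absurd (by rw [h1, h2]) hv
  · intro g
    rw [hB]
    exact (Set.finite_singleton a).union (hfin g)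
  · intro g h
    have hsub : {v | par T a ((g * h) • v) ≠ (g * h) • par T a v} ⊆
        (fun v => h⁻¹ • v) '' {v | par T a (g • v) ≠ g • par T a v} ∪
          {v | par T a (h • v) ≠ h • par T a v} := by
      intro v hv
      by_cases h1 : par T a (h • v) = h • par T a v
      · left
        refine ⟨h • v, ?_, inv_smul_smul h v⟩
        intro h2
        apply hv
        rw [mul_smul, h2, h1, mul_smul]
      · exact Or.inr h1
    have h1 := Set.ncard_le_ncard hsub (((hfin g).image _).union (hfin h))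
    have h2 := Set.ncard_union_le ((fun v => h⁻¹ • v) '' {v | par T a (g • v) ≠ g • par T a v})
      {v | par T a (h • v) ≠ h • par T a v}
    have h3 := Set.ncard_image_le (f := fun v => h⁻¹ • v) (hfin g)
    have h4 : {v | par T a ((g * h) • v) ≠ (g * h) • par T a v}.ncard ≤
        {v | par T a (g • v) ≠ g • par T a v}.ncard +
          {v | par T a (h • v) ≠ h • par T a v}.ncard := by omega
    exact h4
  · intro g
    rw [hB]
    have h1 := Set.ncard_union_le {a} {v | par T a (g • v) ≠ g • par T a v}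
    rw [Set.ncard_singleton, add_comm] at h1
    exact h1

end

end Vale.Agent.P184.H74
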