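import Vale.Agent.P184.H74.Pack

/-!
# A group acting on a tree with one orbit of vertices and one orbit of edges, without inversions:
vertices against edges
-/

namespace Vale.Agent.P184.H74.Hnn

open SimpleGraph H290.Tree

section

variable {G V : Type*} [Group G] [MulAction G V] {T : SimpleGraph V} {a : V} {t : G}

/-- Oriented edges: the orbit of `(a, t a)`. -/
def Ed (T : SimpleGraph V) (a : V) (t : G) : Set (V × V) :=
  {p | T.Adj p.1 p.2 ∧ ∃ g : G, g • a = p.1 ∧ g • t • a = p.2}

/-- The vertices whose edge towards `a` points to them. -/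
def neg (T : SimpleGraph V) (a : V) (t : G) (v : V) : Prop :=
  v ≠ a ∧ (par T a v, v) ∈ Ed T a t

open Classical in
/-- The edge from `v` towards `a`, oriented. -/
noncomputable def ed (T : SimpleGraph V) (a : V) (t : G) (v : V) : V × V :=
  if neg T a t v then (par T a v, v) else (v, par T a v)

open Classical in
/-- The vertex of an edge away from `a`. -/
noncomputable def top (T : SimpleGraph V) (a : V) (p : V × V) : V :=
  if T.dist a p.1 = T.dist a p.2 + 1 then p.1 else p.2

theorem ed_mem (hT : T.IsTree)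
    (hE : ∀ u v, T.Adj u v → (∃ g : G, g • a = u ∧ g • t • a = v) ∨
      ∃ g : G, g • a = v ∧ g • t • a = u)
    {v : V} (hv : v ≠ a) : ed T a t v ∈ Ed T a t := by
  have h1 := par_adj hT (Ne.symm hv)
  unfold ed
  by_cases hn : neg T a t v
  · rw [if_pos hn]
    exact hn.2
  · rw [if_neg hn]
    rcases hE _ _ h1 with h2 | h2
    · exact ⟨h1, h2⟩
    · exact (hn ⟨hv, h1.symm, h2⟩).elim

theorem top_ed (hT : T.IsTree) {v : V} (hv : v ≠ a) : top T a (ed T a t v) = v := by
  have h1 := par_dist hT (Ne.symm hv)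
  unfold ed
  by_cases hn : neg T a t v
  · rw [if_pos hn]
    unfold top
    rw [if_neg (by simp only; omega)]
  · rw [if_neg hn]
    unfold top
    rw [if_pos h1]

theorem top_ne (hT : T.IsTree) {p : V × V} (hp : p ∈ Ed T a t) : top T a p ≠ a := by
  unfold top
  split_ifs with h
  · intro h1
    rw [h1, dist_self] at h
    omega
  · intro h1
    rcases hT.dist_eq_dist_add_one_of_adj a hp.1 with h2 | h2
    · exact h h2
    · rw [h1, dist_self] at h2
      omega

theorem no_inv (hor : ¬ ∃ g : G, g • a = t • a ∧ g • t • a = a) {u v : V}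
    (h1 : (u, v) ∈ Ed T a t) (h2 : (v, u) ∈ Ed T a t) : False := by
  obtain ⟨_, g, hg1, hg2⟩ := h1
  obtain ⟨_, h, hh1, hh2⟩ := h2
  simp only at hg1 hg2 hh1 hh2
  refine hor ⟨g⁻¹ * h, ?_, ?_⟩
  · rw [mul_smul, hh1, ← hg2, inv_smul_smul]
  · rw [mul_smul, hh2, ← hg1, inv_smul_smul]

theorem ed_top (hT : T.IsTree) (hor : ¬ ∃ g : G, g • a = t • a ∧ g • t • a = a) {p : V × V}
    (hp : p ∈ Ed T a t) : ed T a t (top T a p) = p := by
  obtain ⟨u, v⟩ := p
  unfold top
  split_ifs with h
  · simp only at h ⊢
    have h1 : par T a u = v := par_eq hT hp.1 h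
    have hn : ¬ neg T a t u := by
      rintro ⟨_, h2⟩
      rw [h1] at h2
      exact no_inv hor hp h2
    unfold ed
    rw [if_neg hn, h1]
  · simp only at h ⊢
    have h2 : T.dist a v = T.dist a u + 1 := by
      rcases hT.dist_eq_dist_add_one_of_adj a hp.1 with h2 | h2
      · exact absurd h2 h
      · exact h2
    have h1 : par T a v = u := par_eq hT hp.1.symm h2
    have hn : neg T a t v := by
      refine ⟨?_, ?_⟩
      · intro h3
        rw [h3, dist_self] at h2
        omega
      · rw [h1]
        exact hp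
    unfold ed
    rw [if_pos hn, h1]

theorem smul_mem_Ed (hadj : ∀ (g : G) u v, T.Adj u v → T.Adj (g • u) (g • v)) (g : G) {p : V × V}
    (hp : p ∈ Ed T a t) : g • p ∈ Ed T a t := by
  obtain ⟨h1, h, h2, h3⟩ := hp
  refine ⟨hadj g _ _ h1, g * h, ?_, ?_⟩
  · rw [mul_smul, h2]
    rfl
  · rw [mul_smul, h3]
    rfl

open Classical in
/-- The action on the edges, carried over to the vertices. -/
noncomputable def st (T : SimpleGraph V) (a : V) (t g : G) (v : V) : V :=
  if v = a then a else top T a (g • ed T a t v)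

theorem st_base (g : G) : st T a t g a = a := if_pos rfl

theorem st_ne (hT : T.IsTree) (hadj : ∀ (g : G) u v, T.Adj u v → T.Adj (g • u) (g • v))
    (hE : ∀ u v, T.Adj u v → (∃ g : G, g • a = u ∧ g • t • a = v) ∨
      ∃ g : G, g • a = v ∧ g • t • a = u)
    (hor : ¬ ∃ g : G, g • a = t • a ∧ g • t • a = a)
    (g : G) {v : V} (hv : v ≠ a) :
    st T a t g v ≠ a ∧ ed T a t (st T a t g v) = g • ed T a t v := by
  have h1 := smul_mem_Ed hadj g (ed_mem hT hE hv)
  unfold st
  rw [if_neg hv]
  exact ⟨top_ne hT h1, ed_top hT hor h1⟩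

theorem st_one (hT : T.IsTree) (v : V) : st T a t (1 : G) v = v := by
  by_cases hv : v = a
  · rw [hv, st_base]
  · unfold st
    rw [if_neg hv, one_smul, top_ed hT hv]

theorem st_mul (hT : T.IsTree) (hadj : ∀ (g : G) u v, T.Adj u v → T.Adj (g • u) (g • v))
    (hE : ∀ u v, T.Adj u v → (∃ g : G, g • a = u ∧ g • t • a = v) ∨
      ∃ g : G, g • a = v ∧ g • t • a = u)
    (hor : ¬ ∃ g : G, g • a = t • a ∧ g • t • a = a)
    (g h : G) (v : V) : st T a t (g * h) v = st T a t g (st T a t h v) := by
  by_cases hv : v = a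
  · rw [hv, st_base, st_base, st_base]
  · obtain ⟨h1, h2⟩ := st_ne hT hadj hE hor h hv
    have e1 : st T a t (g * h) v = top T a ((g * h) • ed T a t v) := if_neg hv
    have e2 : st T a t g (st T a t h v) = top T a (g • ed T a t (st T a t h v)) := if_neg h1
    rw [e1, e2, h2, mul_smul]

open Classical in
/-- The package for HNN extensions. -/
theorem pack (hT : T.IsTree) (hadj : ∀ (g : G) u v, T.Adj u v → T.Adj (g • u) (g • v))
    (hV : ∀ v, ∃ g : G, g • a = v)
    (hE : ∀ u v, T.Adj u v → (∃ g : G, g • a = u ∧ g • t • a = v) ∨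
      ∃ g : G, g • a = v ∧ g • t • a = u)
    (hor : ¬ ∃ g : G, g • a = t • a ∧ g • t • a = a) :
    ∃ (neg : V → Prop) (s : V → G) (star : G →* Equiv.Perm V) (κ : G → V → G) (ν : G → ℕ),
      (∀ v, s v • a = v) ∧
      (∀ g h v, κ (g * h) v = κ g (star h v) * κ h v) ∧
      (∀ g v, κ g v ∈ MulAction.stabilizer G a ⊓ MulAction.stabilizer G (t • a)) ∧
      (∀ g v, v ∉ B T a g → star g v = g • v ∧ (neg (g • v) ↔ neg v) ∧
        (¬ neg v → κ g v = (s (g • v))⁻¹ * g * s v) ∧
        (neg v → t⁻¹ * κ g v * t = (s (g • v))⁻¹ * g * s v)) ∧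
      (∀ g v, star g v = v → v ∈ B T a g → κ g v = 1) ∧
      (∀ g : G, (B T a g).Finite) ∧ (∀ g h, ν (g * h) ≤ ν g + ν h) ∧
      (∀ g, (B T a g).ncard ≤ ν g + 1) ∧
      (∀ g : G, (∃ v : V, g • v = v) → {v | g • v = v ∧ v ∈ B T a g}.ncard = 1) ∧
      ¬ neg a ∧ (∀ g, star g a = a) ∧ (∀ g, κ g a = 1) ∧ s a = 1 ∧
      (∀ g v, star g v = v → v ≠ a → g • v = v ∧ g • par T a v = par T a v) := by
  -- the section of the edges
  have hsec : ∃ σ : V × V → G, ∀ p ∈ Ed T a t, σ p • a = p.1 ∧ σ p • t • a = p.2 := by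
    refine ⟨fun p => if h : p ∈ Ed T a t then h.2.choose else 1, fun p hp => ?_⟩
    simp only [dif_pos hp]
    exact hp.2.choose_spec
  obtain ⟨σ, hσ⟩ := hsec
  set s : V → G := fun v => if v = a then 1 else
    if neg T a t v then σ (ed T a t v) * t else σ (ed T a t v) with hs
  have hs0 : s a = 1 := if_pos rfl
  have hsn : ∀ v, v ≠ a → neg T a t v → s v = σ (ed T a t v) * t := fun v hv hn => by
    rw [hs]
    simp only
    rw [if_neg hv, if_pos hn]
  have hsp : ∀ v, v ≠ a → ¬ neg T a t v → s v = σ (ed T a t v) := fun v hv hn => by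
    rw [hs]
    simp only
    rw [if_neg hv, if_neg hn]
  -- the values of `s`
  have hsa : ∀ v, s v • a = v := by
    intro v
    by_cases h : v = a
    · rw [h, hs0, one_smul]
    · have h2 := hσ _ (ed_mem hT hE h)
      by_cases hn : neg T a t v
      · rw [hsn v h hn, mul_smul, h2.2]
        unfold ed
        rw [if_pos hn]
      · rw [hsp v h hn, h2.1]
        unfold ed
        rw [if_neg hn]
  -- the action on the edges
  let star : G →* Equiv.Perm V :=
    { toFun := fun g =>
        { toFun := st T a t g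
          invFun := st T a t g⁻¹
          left_inv := fun v => by rw [← st_mul hT hadj hE hor, inv_mul_cancel, st_one hT]
          right_inv := fun v => by rw [← st_mul hT hadj hE hor, mul_inv_cancel, st_one hT] }
      map_one' := by
        ext v
        exact st_one hT v
      map_mul' := fun g h => by
        ext v
        exact st_mul hT hadj hE hor g h v }
  have hstar : ∀ g v, star g v = st T a t g v := fun _ _ => rfl
  set κ : G → V → G := fun g v =>
    if v = a then 1 else (σ (ed T a t (star g v)))⁻¹ * g * σ (ed T a t v) with hκ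
  have hκ0 : ∀ g, κ g a = 1 := fun g => if_pos rfl
  have hκ1 : ∀ g v, v ≠ a → κ g v = (σ (ed T a t (star g v)))⁻¹ * g * σ (ed T a t v) :=
    fun g v hv => if_neg hv
  have hfixed : ∀ g v, star g v = v → v ≠ a → g • v = v ∧ g • par T a v = par T a v := by
    intro g v h hv
    have h1 := (st_ne hT hadj hE hor g hv).2
    rw [← hstar, h] at h1
    unfold ed at h1
    split_ifs at h1 with h2
    · rw [Prod.ext_iff] at h1
      exact ⟨h1.2.symm, h1.1.symm⟩
    · rw [Prod.ext_iff] at h1
      exact ⟨h1.1.symm, h1.2.symm⟩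
  have hfin : ∀ g : G, {v | par T a (g • v) ≠ g • par T a v}.Finite :=
    fun g => par_smul_finite hadj hT a g
  have hB : ∀ g : G, B T a g = {a} ∪ {v | par T a (g • v) ≠ g • par T a v} := fun g => rfl
  refine ⟨neg T a t, s, star, κ, fun g => {v | par T a (g • v) ≠ g • par T a v}.ncard, hsa,
    ?_, ?_, ?_, ?_, ?_, ?_, ?_,
    fun g hg => ncard_fix hT hadj g hg, fun h => h.1 rfl, fun g => st_base g, hκ0, hs0, hfixed⟩
  · intro g h v
    by_cases hv : v = a
    · subst hv
      have e : star h v = v := st_base h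
      rw [hκ0, hκ0, e, hκ0, one_mul]
    · have h1 : star h v ≠ a := (st_ne hT hadj hE hor h hv).1
      rw [hκ1 _ _ hv, hκ1 _ _ hv, hκ1 _ _ h1, map_mul, Equiv.Perm.mul_apply]
      group
  · intro g v
    by_cases hv : v = a
    · rw [hv, hκ0]
      exact one_mem _
    · obtain ⟨h1, h2⟩ := st_ne hT hadj hE hor g hv
      have h3 := hσ _ (ed_mem hT hE hv)
      have h4 := hσ _ (ed_mem hT hE h1)
      rw [h2] at h4
      rw [hκ1 _ _ hv, hstar, h2]
      refine Subgroup.mem_inf.mpr ⟨?_, ?_⟩
      · rw [MulAction.mem_stabilizer_iff, mul_smul, mul_smul, h3.1, inv_smul_eq_iff, h4.1]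
        rfl
      · rw [MulAction.mem_stabilizer_iff, mul_smul, mul_smul, h3.2, inv_smul_eq_iff, h4.2]
        rfl
  · intro g v hv
    have hva : v ≠ a := fun h => hv (Or.inl h)
    have hpar : par T a (g • v) = g • par T a v := by
      by_contra h
      exact hv (Or.inr h)
    have hgv : g • v ≠ a := by
      intro h
      rw [h, par_self] at hpar
      have h1 : v = par T a v := by
        rw [← inv_smul_eq_iff] at hpar
        rw [← hpar, ← h, inv_smul_smul]
      exact (par_adj hT (Ne.symm hva)).ne h1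
    have hneg : neg T a t (g • v) ↔ neg T a t v := by
      constructor
      · rintro ⟨_, h2⟩
        refine ⟨hva, ?_⟩
        rw [hpar] at h2
        have h3 := smul_mem_Ed hadj g⁻¹ h2
        have h4 : g⁻¹ • ((g • par T a v, g • v) : V × V) = (par T a v, v) := by
          rw [Prod.smul_mk, inv_smul_smul, inv_smul_smul]
        rwa [h4] at h3
      · rintro ⟨_, h2⟩
        refine ⟨hgv, ?_⟩
        rw [hpar]
        exact smul_mem_Ed hadj g h2
    have hed : g • ed T a t v = ed T a t (g • v) := by
      unfold ed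
      by_cases h : neg T a t v
      · rw [if_pos h, if_pos (hneg.mpr h), hpar]
        rfl
      · rw [if_neg h, if_neg (fun h' => h (hneg.mp h')), hpar]
        rfl
    have e1 : star g v = g • v := by
      rw [hstar]
      unfold st
      rw [if_neg hva, hed, top_ed hT hgv]
    refine ⟨e1, hneg, fun hn => ?_, fun hn => ?_⟩
    · rw [hκ1 _ _ hva, e1, hsp v hva hn, hsp _ hgv (fun h' => hn (hneg.mp h'))]
    · rw [hκ1 _ _ hva, e1, hsn v hva hn, hsn _ hgv (hneg.mpr hn)]
      group
  · intro g v h hv
    by_cases hva : v = a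
    · rw [hva, hκ0]
    · obtain ⟨h1, h2⟩ := hfixed g v h hva
      rcases hv with hv | hv
      · exact absurd hv hva
      · exact absurd (by rw [h1, h2]) hv
  · intro g
    rw [hB]
    exact (Set.finite_singleton a).union (hfin g)
  · intro g h
    have hsub : {v | par T a ((g * h) • v) ≠ (g * h) • par T a v} ⊆
        (fun v => h⁻¹ • v) '' {v | par T a (g • v) ≠ g • par T a v} ∪
          {v | par T a (h • v) ≠ h • par T a v} := by
      intro v hv
      by_cases h1 : par T a (h • v) = h • par T a v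
      · left
        refine ⟨h • v, ?_, inv_smul_smul h v⟩
        intro h2
        apply hv
        rw [mul_smul, h2, h1, mul_smul]
      · exact Or.inr h1
    have h1 := Set.ncard_le_ncard hsub (((hfin g).image _).union (hfin h))
    have h2 := Set.ncard_union_le ((fun v => h⁻¹ • v) '' {v | par T a (g • v) ≠ g • par T a v})
      {v | par T a (h • v) ≠ h • par T a v}
    have h3 := Set.ncard_image_le (f := fun v => h⁻¹ • v) (hfin g)
    have h4 : {v | par T a ((g * h) • v) ≠ (g * h) • par T a v}.ncard ≤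
        {v | par T a (g • v) ≠ g • par T a v}.ncard +
          {v | par T a (h • v) ≠ h • par T a v}.ncard := by omega
    exact h4
  · intro g
    rw [hB]
    have h1 := Set.ncard_union_le {a} {v | par T a (g • v) ≠ g • par T a v}
    rw [Set.ncard_singleton, add_comm] at h1
    exact h1

end

end Vale.Agent.P184.H74.Hnn
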